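import Vale.Agent.P004G.ML

/-!
# P004G: module ML1 (minimal models with good reduction, shapes of the local polynomial)
-/

open WeierstrassCurve IsDedekindDomain NumberField Polynomial

namespace P004G
namespace ML
namespace M1

section count

variable {F : Type} [Field F]

/-- the affine points -/
def APts (W : WeierstrassCurve F) : Type :=
  {q : F × F // q.2 ^ 2 + W.a₁ * q.1 * q.2 + W.a₃ * q.2 =
    q.1 ^ 3 + W.a₂ * q.1 ^ 2 + W.a₄ * q.1 + W.a₆}

lemma affCard_eq (W : WeierstrassCurve F) : affCard W = Nat.card (APts W) := rfl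

/-- a change of variables induces a bijection on affine points -/
def ptsEquiv (W : WeierstrassCurve F) (C : VariableChange F) : APts (C • W) ≃ APts W where
  toFun q := ⟨((C.u : F) ^ 2 * q.1.1 + C.r, (C.u : F) ^ 3 * q.1.2 + C.s * (C.u : F) ^ 2 * q.1.1 + C.t),
    by
      obtain ⟨⟨x, y⟩, h⟩ := q
      have hu : (C.u : F) ≠ 0 := C.u.ne_zero
      simp only [variableChange_a₁, variableChange_a₂, variableChange_a₃, variableChange_a₄,
        variableChange_a₆, Units.val_inv_eq_inv_val] at h ⊢
      field_simp at h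
      linear_combination h⟩
  invFun q := ⟨((C.u⁻¹ : F) ^ 2 * (q.1.1 - C.r), (C.u⁻¹ : F) ^ 3 * (q.1.2 - C.s * (q.1.1 - C.r) - C.t)),
    by
      obtain ⟨⟨x, y⟩, h⟩ := q
      have hu : (C.u : F) ≠ 0 := C.u.ne_zero
      simp only [variableChange_a₁, variableChange_a₂, variableChange_a₃, variableChange_a₄,
        variableChange_a₆, Units.val_inv_eq_inv_val] at h ⊢
      field_simp
      linear_combination h⟩
  left_inv q := by
    obtain ⟨⟨x, y⟩, h⟩ := q
    have hu : (C.u : F) ≠ 0 := C.u.ne_zero
    apply Subtype.ext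
    apply Prod.ext
    · simp only
      field_simp
      ring
    · simp only
      field_simp
      ring
  right_inv q := by
    obtain ⟨⟨x, y⟩, h⟩ := q
    have hu : (C.u : F) ≠ 0 := C.u.ne_zero
    apply Subtype.ext
    apply Prod.ext
    · simp only
      field_simp
      ring
    · simp only
      field_simp
      ring

lemma affCard_smul (W : WeierstrassCurve F) (C : VariableChange F) :
    affCard (C • W) = affCard W := Nat.card_congr (ptsEquiv W C)

/-- the points of an elliptic curve -/
noncomputable def ptEquiv (W : WeierstrassCurve F) [W.IsElliptic] :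
    W.toAffine.Point ≃ Option (APts W) where
  toFun P := match P with
    | .zero => none
    | .some x y h => some ⟨(x, y), (Affine.equation_iff ..).1 h.1⟩
  invFun P := match P with
    | none => .zero
    | some q => .some q.1.1 q.1.2 (Affine.equation_iff_nonsingular.1 ((Affine.equation_iff ..).2 q.2))
  left_inv P := by
    cases P <;> rfl
  right_inv P := by
    cases P <;> rfl

lemma card_point (W : WeierstrassCurve F) [W.IsElliptic] [Finite F] :
    Nat.card W.toAffine.Point = affCard W + 1 := by
  have : Finite (APts W) := Subtype.finite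
  rw [Nat.card_congr (ptEquiv W), Finite.card_option, affCard_eq]

end count

section dvr

open IsDiscreteValuationRing IsLocalRing IsDedekindDomain.HeightOneSpectrum

variable {R : Type} [CommRing R] [IsDomain R] [IsDiscreteValuationRing R] {K : Type} [Field K]
  [Algebra R K] [IsFractionRing R K]

lemma integ {x : K} (hx : _root_.IsIntegral R x) : ∃ r : R, algebraMap R K r = x :=
  (IsIntegrallyClosed.isIntegral_iff).1 hx

lemma integ_of_monic {x : K} (f : R[X]) (hf : f.Monic) (h : aeval x f = 0) :
    ∃ r : R, algebraMap R K r = x := integ ⟨f, hf, by simpa [aeval_def] using h⟩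

/-- The change of variables between two integral models with a unit `u` is integral. -/
lemma lift_change (W₁ I : WeierstrassCurve R) (D : VariableChange K)
    (h : D • (W₁.map (algebraMap R K)) = I.map (algebraMap R K)) (u : Rˣ)
    (hu : algebraMap R K u = D.u) :
    ∃ D' : VariableChange R, D' • W₁ = I := by
  have hu0 : (D.u : K) ≠ 0 := D.u.ne_zero
  have e2 := congrArg WeierstrassCurve.a₂ h
  have e6 := congrArg WeierstrassCurve.a₆ h
  have b6 := congrArg WeierstrassCurve.b₆ h
  have b8 := congrArg WeierstrassCurve.b₈ h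
  simp only [variableChange_a₂, variableChange_a₆, variableChange_b₆, variableChange_b₈,
    Units.val_inv_eq_inv_val, map_a₁, map_a₂, map_a₃, map_a₄, map_a₆, map_b₂, map_b₄, map_b₆,
    map_b₈] at e2 e6 b6 b8
  rw [← hu] at e2 e6 b6 b8 hu0
  field_simp at e2 e6 b6 b8
  -- `4 r` is integral
  have h4 : ∃ r : R, algebraMap R K r = 4 * D.r := by
    refine integ_of_monic (X ^ 3 + Polynomial.C W₁.b₂ * X ^ 2 + Polynomial.C (8 * W₁.b₄) * X +
      Polynomial.C (16 * (W₁.b₆ - u ^ 6 * I.b₆))) (by monicity!) ?_
    simp only [map_add, map_mul, map_pow, aeval_X, aeval_C, map_sub, map_ofNat]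
    linear_combination 16 * b6
  have h3 : ∃ r : R, algebraMap R K r = 3 * D.r := by
    refine integ_of_monic (X ^ 4 + Polynomial.C W₁.b₂ * X ^ 3 + Polynomial.C (9 * W₁.b₄) * X ^ 2 +
      Polynomial.C (27 * W₁.b₆) * X +
      Polynomial.C (27 * (W₁.b₈ - u ^ 8 * I.b₈))) (by monicity!) ?_
    simp only [map_add, map_mul, map_pow, aeval_X, aeval_C, map_sub, map_ofNat]
    linear_combination 27 * b8
  obtain ⟨r4, hr4⟩ := h4
  obtain ⟨r3, hr3⟩ := h3
  obtain ⟨r, hr⟩ : ∃ r : R, algebraMap R K r = D.r := ⟨r4 - r3, by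
    rw [map_sub, hr4, hr3]; ring⟩
  obtain ⟨s, hs⟩ : ∃ s : R, algebraMap R K s = D.s := by
    refine integ_of_monic (X ^ 2 + Polynomial.C W₁.a₁ * X +
      Polynomial.C (- (W₁.a₂ + 3 * r - u ^ 2 * I.a₂))) (by monicity!) ?_
    simp only [map_add, map_mul, map_pow, aeval_X, aeval_C, map_sub, map_ofNat, map_neg, hr]
    linear_combination - e2
  obtain ⟨t, ht⟩ : ∃ t : R, algebraMap R K t = D.t := by
    refine integ_of_monic (X ^ 2 + Polynomial.C (W₁.a₃ + r * W₁.a₁) * X +
      Polynomial.C (- (W₁.a₆ + r * W₁.a₄ + r ^ 2 * W₁.a₂ + r ^ 3 - u ^ 6 * I.a₆))) (by monicity!) ?_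
    simp only [map_add, map_mul, map_pow, aeval_X, aeval_C, map_sub, map_neg, hr]
    linear_combination - e6
  refine ⟨⟨u, r, s, t⟩, ?_⟩
  have hD : D = (⟨u, r, s, t⟩ : VariableChange R).map (algebraMap R K) := by
    ext
    · simp [VariableChange.map, hu]
    · simp [VariableChange.map, hr]
    · simp [VariableChange.map, hs]
    · simp [VariableChange.map, ht]
  rw [hD, map_variableChange] at h
  exact WeierstrassCurve.map_injective (IsFractionRing.injective R K) h

lemma val_eq_one_iff (x : R) :
    valuation K (maximalIdeal R) (algebraMap R K x) = 1 ↔ IsUnit x := by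
  have h1 : valuation K (maximalIdeal R) (algebraMap R K x) < 1 ↔
      x ∈ IsLocalRing.maximalIdeal R := valuation_lt_one_iff_mem _ _
  have h2 := valuation_le_one (K := K) (maximalIdeal R) x
  rw [← not_iff_not]
  constructor
  · intro h hx
    have := h1.1 (lt_of_le_of_ne h2 h)
    exact this hx
  · intro h h'
    have := h1.2 (by rwa [mem_maximalIdeal, mem_nonunits_iff])
    exact absurd h' this.ne

variable (R) in
/-- the integral model of the minimal model -/
noncomputable def Im (W : WeierstrassCurve K) : WeierstrassCurve R := integralModel R (W.minimal R)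

lemma Im_map (W : WeierstrassCurve K) :
    ∃ C : VariableChange K, C • W = (Im R W).map (algebraMap R K) :=
  ⟨(W.exists_isMinimal R).choose, (baseChange_integralModel_eq R (W.minimal R)).symm⟩

lemma val_Δ (W : WeierstrassCurve K) : valuation K (maximalIdeal R) (W.minimal R).Δ =
    valuation K (maximalIdeal R) (algebraMap R K (Im R W).Δ) := by
  rw [Im, integralModel_Δ_eq]

lemma val_c₄ (W : WeierstrassCurve K) : valuation K (maximalIdeal R) (W.minimal R).c₄ =
    valuation K (maximalIdeal R) (algebraMap R K (Im R W).c₄) := by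
  rw [Im, integralModel_c₄_eq]

lemma good_iff (W : WeierstrassCurve K) :
    (W.minimal R).HasGoodReduction R ↔ IsUnit (Im R W).Δ := by
  rw [hasGoodReduction_iff, val_Δ, val_eq_one_iff]
  exact ⟨fun h => h.2, fun h => ⟨inferInstance, h⟩⟩

lemma mult_c₄ (W : WeierstrassCurve K) (h : (W.minimal R).HasMultiplicativeReduction R) :
    IsUnit (Im R W).c₄ := by
  rw [hasMultiplicativeReduction_iff, val_c₄, val_eq_one_iff] at h
  exact h.2.2

/-- a model with unit discriminant forces the minimal model to have unit discriminant, and the two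
are related by an integral change of variables -/
lemma unit_model (W : WeierstrassCurve K) (C : VariableChange K) (W₁ : WeierstrassCurve R)
    (h : C • W = W₁.map (algebraMap R K)) (hΔ : IsUnit W₁.Δ) :
    IsUnit (Im R W).Δ ∧ ∃ D' : VariableChange R, D' • W₁ = Im R W := by
  have hmin : IsMinimal R (W.minimal R) := inferInstance
  have hC₀ : W.minimal R = (W.exists_isMinimal R).choose • W := rfl
  set C₀ : VariableChange K := (W.exists_isMinimal R).choose with hC₀'
  set D : VariableChange K := C₀ * C⁻¹ with hD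
  have hDW : D • (W₁.map (algebraMap R K)) = W.minimal R := by
    rw [hD, ← h, mul_smul, inv_smul_smul, hC₀]
  have hDW' : D⁻¹ • W.minimal R = W₁.map (algebraMap R K) := by
    rw [← hDW, inv_smul_smul]
  have hint : (D⁻¹ • W.minimal R).IsIntegral R := ⟨W₁, hDW'⟩
  have hmax := hmin.val_Δ_maximal.2 (j := D⁻¹) hint
  have hval : valuation K (maximalIdeal R) (D⁻¹ • W.minimal R).Δ = 1 := by
    rw [hDW', map_Δ, val_eq_one_iff]
    exact hΔ
  have hge : valuation_Δ_aux R (D⁻¹ • W.minimal R) ≤ valuation_Δ_aux R (W.minimal R) := by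
    rcases le_total (valuation_Δ_aux R (D⁻¹ • W.minimal R)) (valuation_Δ_aux R (W.minimal R))
      with h1 | h1
    · exact h1
    · simpa using hmax (by simpa using h1)
  have hge' : (1 : WithZero (Multiplicative ℤ)) ≤ valuation K (maximalIdeal R) (W.minimal R).Δ := by
    rw [← hval, ← valuation_Δ_aux_eq_of_isIntegral, ← valuation_Δ_aux_eq_of_isIntegral]
    exact_mod_cast hge
  have hu1 : IsUnit (Im R W).Δ := by
    rw [← val_eq_one_iff (K := K), ← val_Δ]
    refine le_antisymm ?_ hge'
    rw [val_Δ]
    exact valuation_le_one _ _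
  refine ⟨hu1, ?_⟩
  obtain ⟨v, hv⟩ := hu1
  obtain ⟨w, hw⟩ := hΔ
  have hu0 : (D.u : K) ≠ 0 := D.u.ne_zero
  have hIm : (Im R W).map (algebraMap R K) = W.minimal R :=
    baseChange_integralModel_eq R (W.minimal R)
  have e := congrArg WeierstrassCurve.Δ hDW
  rw [← hIm, variableChange_Δ, map_Δ, map_Δ, ← hv, ← hw, Units.val_inv_eq_inv_val] at e
  field_simp at e
  have i1 : ∃ a : R, algebraMap R K a = D.u := by
    refine integ_of_monic (X ^ 12 - Polynomial.C ((w * v⁻¹ : Rˣ) : R)) (by monicity!) ?_
    have hv0 : algebraMap R K (v : R) ≠ 0 := by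
      rw [Ne, map_eq_zero_iff _ (IsFractionRing.injective R K)]; exact v.ne_zero
    have : algebraMap R K (v : R) * algebraMap R K ((v⁻¹ : Rˣ) : R) = 1 := by
      rw [← map_mul, Units.mul_inv, map_one]
    simp only [map_sub, map_pow, aeval_X, aeval_C, Units.val_mul, map_mul]
    linear_combination (- (algebraMap R K ((v⁻¹ : Rˣ) : R))) * e - (D.u : K) ^ 12 * this
  have i2 : ∃ a : R, algebraMap R K a = (D.u : K)⁻¹ := by
    refine integ_of_monic (X ^ 12 - Polynomial.C ((v * w⁻¹ : Rˣ) : R)) (by monicity!) ?_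
    have : algebraMap R K (w : R) * algebraMap R K ((w⁻¹ : Rˣ) : R) = 1 := by
      rw [← map_mul, Units.mul_inv, map_one]
    simp only [map_sub, map_pow, aeval_X, aeval_C, Units.val_mul, map_mul]
    have e' : algebraMap R K (w : R) * ((D.u : K)⁻¹) ^ 12 = algebraMap R K (v : R) := by
      field_simp
      linear_combination e
    linear_combination (algebraMap R K ((w⁻¹ : Rˣ) : R)) * e' - ((D.u : K)⁻¹) ^ 12 * this
  obtain ⟨a, ha⟩ := i1
  obtain ⟨b, hb⟩ := i2
  have hab : a * b = 1 := by
    apply IsFractionRing.injective R K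
    rw [map_mul, ha, hb, map_one, mul_inv_cancel₀ hu0]
  refine lift_change W₁ (Im R W) D (hDW.trans hIm.symm) ⟨a, b, hab, by rw [mul_comm, hab]⟩ ha

/-- Module ML1a. -/
theorem pfLocGood : StLocGood := by
  intro p R _ _ _ K _ _ _ hR W C W₁ h hΔ
  obtain ⟨hu, D', hD'⟩ := unit_model W C W₁ h hΔ
  have hcard := hR.card
  have : Finite (ResidueField R) := Nat.finite_of_card_ne_zero (by
    rw [hcard]; exact hR.prime.ne_zero)
  have hred : (W.minimal R).reduction R = (D'.map (residue R)) • (W₁.map (residue R)) := by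
    rw [reduction, ← Im, ← hD', map_variableChange]
  have hell : ((W.minimal R).reduction R).IsElliptic :=
    (hasGoodReduction_iff_isElliptic_reduction R).1 ((good_iff W).2 hu)
  have hpt : Nat.card ((W.minimal R).reduction R).toAffine.Point =
      affCard (W₁.map (residue R)) + 1 := by
    rw [card_point, hred, affCard_smul]
  rw [localPolynomial, if_pos ((good_iff W).2 hu), hcard, hpt]
  congr 4
  push_cast
  ring

/-- Module ML1b. -/
theorem pfLocAdd : StLocAdd := by
  intro p R _ _ _ K _ _ _ hR W h
  obtain ⟨C, hC⟩ := Im_map (R := R) W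
  obtain ⟨h1, h2⟩ := h C _ hC
  rw [localPolynomial, if_neg (fun hg => h1 ((good_iff W).1 hg)),
    if_neg (fun hs => h2 (mult_c₄ W hs.toHasMultiplicativeReduction)),
    if_neg (fun hs => h2 (mult_c₄ W hs))]

/-- Module ML1c. -/
theorem pfLocShape : StLocShape := by
  intro p R _ _ _ K _ _ _ hR W
  rw [localPolynomial, hR.card]
  split_ifs
  · exact Or.inl ⟨_, rfl⟩
  · exact Or.inr (Or.inl rfl)
  · exact Or.inr (Or.inr (Or.inl rfl))
  · exact Or.inr (Or.inr (Or.inr rfl))

end dvr

end M1
end ML
end P004G
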