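import Vale.Agent.P004G.ML

/-!
# P004G: module ML2 (the completions of `ℚ`, the Euler product of Mathlib's `L`-function)
-/

open WeierstrassCurve IsDedekindDomain NumberField Polynomial

namespace P004G
namespace ML
namespace M2

/-- Module ML2a. -/
theorem pfLoc : StLoc := by
  intro p hp
  have : Fact p.Prime := ⟨hp⟩
  have e : ℤ_[p] ≃+* (pl p hp).adicCompletionIntegers ℚ :=
    (PadicInt.adicCompletionIntegersEquiv (𝓞 ℚ) ⟨p, hp⟩).toRingEquiv
  refine ⟨hp, ?_, ?_, ?_⟩
  · exact charZero_of_injective_ringHom (f := (e : ℤ_[p] →+* (pl p hp).adicCompletionIntegers ℚ))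
      e.injective
  · have h := (MulEquiv.irreducible_iff e.toMulEquiv (x := (p : ℤ_[p]))).2 PadicInt.irreducible_p
    simpa using h
  · have h := Nat.card_congr ((IsLocalRing.ResidueField.mapEquiv e).symm.trans
      PadicInt.residueField).toEquiv
    rw [h, Nat.card_zmod]

open ArithmeticFunction in
/-- trivial at the powers of `p` -/
def EE (p : ℕ) (g : ArithmeticFunction ℤ) : Prop := ∀ j : ℕ, g (p ^ j) = if j = 0 then 1 else 0

open ArithmeticFunction in
lemma mul_pow (p : ℕ) (hp : p.Prime) (g h : ArithmeticFunction ℤ) (hE : EE p h) (j : ℕ) :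
    (g * h) (p ^ j) = g (p ^ j) := by
  rw [ArithmeticFunction.mul_apply, Nat.sum_divisorsAntidiagonal (f := fun a b => g a * h b),
    Nat.sum_divisors_prime_pow hp]
  rw [Finset.sum_eq_single j]
  · rw [Nat.div_self (pow_pos hp.pos j)]
    have := hE 0
    simp only [pow_zero, if_true] at this
    rw [this, mul_one]
  · intro i hi hij
    have hi' : i < j := lt_of_le_of_ne (Nat.lt_succ_iff.1 (Finset.mem_range.1 hi)) hij
    rw [Nat.pow_div hi'.le hp.pos, hE, if_neg (by omega), mul_zero]
  · intro h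
    exact absurd (Finset.mem_range.2 (Nat.lt_succ_self j)) h

open ArithmeticFunction in
lemma EE_prod {ι : Type} (p : ℕ) (hp : p.Prime) (s : Finset ι) (f : ι → ArithmeticFunction ℤ)
    (h : ∀ i ∈ s, EE p (f i)) : EE p (∏ i ∈ s, f i) := by
  classical
  induction s using Finset.induction_on with
  | empty =>
    intro j
    rw [Finset.prod_empty, ArithmeticFunction.one_apply]
    by_cases hj : j = 0
    · simp [hj]
    · rw [if_neg, if_neg hj]
      exact (Nat.one_lt_pow hj hp.one_lt).ne'
  | insert i s hi ih =>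
    intro j
    rw [Finset.prod_insert hi, mul_pow p hp _ _ (ih fun k hk => h k (Finset.mem_insert_of_mem hk))]
    exact h i (Finset.mem_insert_self i s) j

open ArithmeticFunction in
/-- the Euler product at prime powers -/
lemma euler_pow {ι : Type} (q : ι → ℕ) (hq : ∀ i, (q i).Prime) (hinj : Function.Injective q)
    (f : ι → PowerSeries ℤ) (hf : ∀ i, (f i).constantCoeff = 1) (i : ι) (k : ℕ) :
    eulerProduct (fun i ↦ ofPowerSeries (q i) (f i)) (q i ^ k) = (f i).coeff k := by
  classical
  have : Northcott q := ⟨fun b => Set.Finite.of_injOn (f := q) (t := Set.Iic b)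
    (fun a ha => ha) (hinj.injOn) (Set.finite_Iic b)⟩
  have h1 := tendsTo_eulerProduct_ofPowerSeries q f hf (q i ^ k)
  have h2 := (h1.and (Filter.eventually_ge_atTop ({i} : Finset ι))).exists
  obtain ⟨s, hs, his⟩ := h2
  rw [← hs]
  have hi : i ∈ s := his (Finset.mem_singleton_self i)
  rw [← Finset.mul_prod_erase s _ hi, mul_pow (q i) (hq i)]
  · exact ofPowerSeries_apply_pow (hq i).one_lt _ _
  · apply EE_prod _ (hq i)
    intro j hj m
    have hji : q j ≠ q i := fun h => (Finset.mem_erase.1 hj).1 (hinj h)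
    by_cases hm : m = 0
    · subst hm
      rw [if_pos rfl, pow_zero, ofPowerSeries_apply_one, hf]
    · rw [if_neg hm, ofPowerSeries_apply (hq j).one_lt, Function.extend_apply', Pi.zero_apply]
      rintro ⟨a, ha⟩
      have ha0 : a ≠ 0 := by
        rintro rfl
        rw [pow_zero] at ha
        exact (Nat.one_lt_pow hm (hq i).one_lt).ne ha
      have h3 : q j ∣ q i ^ m := ha ▸ dvd_pow_self _ ha0
      exact hji ((Nat.prime_dvd_prime_iff_eq (hq j) (hq i)).1 ((hq j).dvd_of_dvd_pow h3))

lemma qv_eq (v : HeightOneSpectrum (𝓞 ℚ)) :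
    Nat.card (IsLocalRing.ResidueField (v.adicCompletionIntegers ℚ)) =
      (Rat.HeightOneSpectrum.primesEquiv (R := 𝓞 ℚ) v).1 := by
  obtain ⟨p, rfl⟩ := (Rat.HeightOneSpectrum.primesEquiv (R := 𝓞 ℚ)).symm.surjective v
  rw [Equiv.apply_symm_apply]
  exact (pfLoc p.1 p.2).card

lemma qv_prime (v : HeightOneSpectrum (𝓞 ℚ)) :
    (Nat.card (IsLocalRing.ResidueField (v.adicCompletionIntegers ℚ))).Prime := by
  rw [qv_eq]
  exact (Rat.HeightOneSpectrum.primesEquiv (R := 𝓞 ℚ) v).2

lemma qv_inj : Function.Injective (fun v : HeightOneSpectrum (𝓞 ℚ) =>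
    Nat.card (IsLocalRing.ResidueField (v.adicCompletionIntegers ℚ))) := by
  intro v w h
  simp only [qv_eq] at h
  exact (Rat.HeightOneSpectrum.primesEquiv (R := 𝓞 ℚ)).injective (Subtype.ext h)

lemma cc_one (P : ℤ[X]) : (PowerSeries.invOfUnit (P : PowerSeries ℤ) 1).constantCoeff = 1 := by
  simp [PowerSeries.constantCoeff_invOfUnit]

lemma LA_pow (a b : ℤ) (p : ℕ) (hp : p.Prime) (k : ℕ) :
    LA a b (p ^ k) = PowerSeries.coeff k (PowerSeries.invOfUnit (locP a b p hp : PowerSeries ℤ) 1) := by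
  have h := euler_pow (fun v : HeightOneSpectrum (𝓞 ℚ) =>
    Nat.card (IsLocalRing.ResidueField (v.adicCompletionIntegers ℚ))) qv_prime qv_inj
    (fun v => PowerSeries.invOfUnit ((((Ec a b).baseChange (v.adicCompletion ℚ)).localPolynomial
      (v.adicCompletionIntegers ℚ) : ℤ[X]) : PowerSeries ℤ) 1) (fun v => cc_one _) (pl p hp) k
  simp only [(pfLoc p hp).card] at h
  exact h

lemma LA_mul (a b : ℤ) : ArithmeticFunction.IsMultiplicative ((Ec a b).LFunction) := by
  apply ArithmeticFunction.isMultiplicative_eulerProduct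
  intro v
  exact ArithmeticFunction.isMultiplicative_ofPowerSeries_of_isPrimePow _
    (qv_prime v).isPrimePow _ (cc_one _)

/-- coefficients of `1 / (1 + a X + b X²)` -/
lemma inv_quad (P : ℤ[X]) (a b : ℤ)
    (hP : P = 1 + Polynomial.C a * X + Polynomial.C b * X ^ 2) :
    let S : PowerSeries ℤ := PowerSeries.invOfUnit (P : PowerSeries ℤ) 1
    S.coeff 0 = 1 ∧ S.coeff 1 = -a ∧ ∀ k, S.coeff (k + 2) = -a * S.coeff (k + 1) - b * S.coeff k := by
  intro S
  have hc : PowerSeries.constantCoeff (P : PowerSeries ℤ) = ((1 : ℤˣ) : ℤ) := by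
    rw [hP]; simp
  have hS : (P : PowerSeries ℤ) * S = 1 := PowerSeries.mul_invOfUnit _ _ hc
  have hP' : (P : PowerSeries ℤ) = 1 + PowerSeries.C a * PowerSeries.X +
      PowerSeries.C b * PowerSeries.X ^ 2 := by
    rw [hP, Polynomial.coe_add, Polynomial.coe_add, Polynomial.coe_mul, Polynomial.coe_mul,
      Polynomial.coe_pow, Polynomial.coe_C, Polynomial.coe_C, Polynomial.coe_X, Polynomial.coe_one]
  rw [hP'] at hS
  have hS' : S = 1 - PowerSeries.C a * (PowerSeries.X * S) -
      PowerSeries.C b * (PowerSeries.X * (PowerSeries.X * S)) := by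
    linear_combination hS
  have h0 : S.coeff 0 = 1 := by
    rw [hS']
    simp
  refine ⟨h0, ?_, ?_⟩
  · rw [hS']
    simp only [map_sub, PowerSeries.coeff_C_mul]
    rw [show (1 : ℕ) = 0 + 1 from rfl, PowerSeries.coeff_succ_X_mul, PowerSeries.coeff_succ_X_mul, h0]
    simp [PowerSeries.coeff_one]
  · intro k
    conv_lhs => rw [hS']
    simp only [map_sub, PowerSeries.coeff_C_mul]
    rw [show k + 2 = (k + 1) + 1 from rfl, PowerSeries.coeff_succ_X_mul,
      PowerSeries.coeff_succ_X_mul, PowerSeries.coeff_succ_X_mul, PowerSeries.coeff_one]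
    simp

/-- Module ML2b. -/
theorem pfEul : StEul := by
  intro a b
  refine ⟨ArithmeticFunction.map_zero, (LA_mul a b).1, fun m n h => (LA_mul a b).2 h, ?_⟩
  intro p hp
  have key : ∀ c d : ℤ, locP a b p hp = 1 + Polynomial.C c * X + Polynomial.C d * X ^ 2 →
      LA a b (p ^ 0) = 1 ∧ LA a b (p ^ 1) = - c ∧
      ∀ k, LA a b (p ^ (k + 2)) = - c * LA a b (p ^ (k + 1)) - d * LA a b (p ^ k) := by
    intro c d h
    have := inv_quad _ c d h
    simpa only [← LA_pow] using this
  refine ⟨fun h => ?_, fun h => ?_, fun h => ?_, fun t h => ?_⟩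
  · obtain ⟨h0, h1, h2⟩ := key 0 0 (by rw [h]; simp)
    intro k
    induction k with
    | zero => simpa using h1
    | succ k ih => rw [h2]; ring
  · obtain ⟨h0, h1, h2⟩ := key (-1) 0 (by rw [h]; simp; ring)
    intro k
    induction k with
    | zero => exact h0
    | succ k ih =>
      rcases k with _ | k
      · simpa using h1
      · rw [h2, ih]; ring
  · obtain ⟨h0, h1, h2⟩ := key 1 0 (by rw [h]; simp)
    intro k
    induction k with
    | zero => simpa using h0
    | succ k ih =>
      rcases k with _ | k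
      · simpa using h1
      · rw [h2, ih]; ring
  · obtain ⟨h0, h1, h2⟩ := key (-t) p (by rw [h]; simp; ring)
    have h1' : LA a b p = t := by simpa using h1
    refine ⟨h1', fun k => ?_⟩
    rw [h2, h1']
    ring

end M2
end ML
end P004G
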