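import Vale.Agent.P004G.H392.ML1
import Vale.Agent.P004G.H392.ML2
import Vale.Agent.P004G.H3.MG1

/-!
# P004G: module MLQ (Mathlib's `L`-function of `y² = x³ - B x`)
-/

open WeierstrassCurve IsDedekindDomain NumberField Polynomial

namespace P004G
namespace ML
namespace MQ

open MG

section generic

variable {k k' : Type} [Field k] [Field k']

lemma affCard_map (e : k ≃+* k') (W : WeierstrassCurve k) :
    affCard (W.map (e : k →+* k')) = affCard W := by
  unfold affCard
  symm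
  refine Nat.card_congr (Equiv.subtypeEquiv (Equiv.prodCongr e.toEquiv e.toEquiv) ?_)
  rintro ⟨x, y⟩
  simp only [WeierstrassCurve.map, Equiv.prodCongr_apply, Prod.map, RingEquiv.toEquiv_eq_coe,
    EquivLike.coe_coe, RingHom.coe_coe, ← map_pow, ← map_mul, ← map_add]
  exact e.injective.eq_iff.symm

lemma affCard_Ew {p : ℕ} [Fact p.Prime] (hp : p.Prime) (hk : Nat.card k = p) (a b : ℤ) :
    affCard (Ew k a b) = affCard (Ew (ZMod p) a b) := by
  have hfin : Finite k := Nat.finite_of_card_ne_zero (by rw [hk]; exact hp.ne_zero)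
  have hF : Fintype k := Fintype.ofFinite k
  have hcard : Fintype.card k = p := by rw [← Nat.card_eq_fintype_card, hk]
  have e : ZMod p ≃+* k := ZMod.ringEquivOfPrime k hp hcard
  rw [← affCard_map e, map_Ew]

/-- two sequences with the same values at prime powers -/
lemma eq_of_pow (A A' : ℕ → ℤ) (h0 : A 0 = 0) (h0' : A' 0 = 0)
    (h1 : A 1 = 1) (h1' : A' 1 = 1)
    (hm : ∀ m n : ℕ, m.Coprime n → A (m * n) = A m * A n)
    (hm' : ∀ m n : ℕ, m.Coprime n → A' (m * n) = A' m * A' n)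
    (hp : ∀ p : ℕ, p.Prime → ∀ k : ℕ, A (p ^ k) = A' (p ^ k)) (n : ℕ) : A n = A' n := by
  induction n using Nat.recOnPosPrimePosCoprime with
  | prime_pow p n hpp hn => exact hp p hpp n
  | zero => rw [h0, h0']
  | one => rw [h1, h1']
  | coprime a b ha hb hab iha ihb => rw [hm _ _ hab, hm' _ _ hab, iha, ihb]

lemma pow_of_good {A A' : ℕ → ℤ} {p : ℕ} (h1 : A 1 = 1) (h1' : A' 1 = 1) (hA : GoodAt A p)
    (hA' : GoodAt A' p) (h : A p = A' p) (k : ℕ) : A (p ^ k) = A' (p ^ k) := by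
  have key : ∀ k : ℕ, A (p ^ k) = A' (p ^ k) ∧ A (p ^ (k + 1)) = A' (p ^ (k + 1)) := by
    intro k
    induction k with
    | zero => simp [h1, h1', h]
    | succ k ih => exact ⟨ih.2, by rw [hA k, hA' k, h, ih.1, ih.2]⟩
  exact (key k).1

lemma pow_of_triv {A A' : ℕ → ℤ} {p : ℕ} (h1 : A 1 = 1) (h1' : A' 1 = 1) (hA : TrivAt A p)
    (hA' : TrivAt A' p) (k : ℕ) : A (p ^ k) = A' (p ^ k) := by
  cases k with
  | zero => simp [h1, h1']
  | succ k => rw [hA k, hA' k]

end generic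

section local_ring

variable {p : ℕ} {R : Type} [CommRing R] [IsDomain R] [IsDiscreteValuationRing R]
  {K : Type} [Field K] [Algebra R K] [IsFractionRing R K]

/-- if `u ^ n w = c` with `w` a unit then `u` is in `R` -/
lemma u_int {n : ℕ} (hn : 0 < n) (u : K) {w c : R} (hw : IsUnit w)
    (he : u ^ n * algebraMap R K w = algebraMap R K c) : ∃ r : R, algebraMap R K r = u := by
  obtain ⟨w', rfl⟩ := hw
  have h1 : u ^ n = algebraMap R K (c * (w'⁻¹ : Rˣ)) := by
    rw [map_mul, ← he, mul_assoc, ← map_mul, Units.mul_inv, map_one, mul_one]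
  exact IsIntegrallyClosed.exists_algebraMap_eq_of_isIntegral_pow (R := R) hn
    (h1 ▸ isIntegral_algebraMap)

/-- the valuation of the discriminant of an integral model -/
lemma val_disc (h : Loc p R) {n : ℕ} (hn : 0 < n) (u : K) (hu : u ≠ 0) {w ε : R} {m : ℕ}
    (hw : IsUnit w) (hε : IsUnit ε)
    (he : u ^ n * algebraMap R K w = algebraMap R K ((p : R) ^ m * ε)) : n ∣ m := by
  obtain ⟨r, hr⟩ := u_int hn u hw he
  have hinj : Function.Injective (algebraMap R K) := IsFractionRing.injective R K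
  have hr0 : r ≠ 0 := by
    rintro rfl
    rw [map_zero] at hr
    exact hu hr.symm
  obtain ⟨k, v, hv⟩ := IsDiscreteValuationRing.eq_unit_mul_pow_irreducible hr0 h.unif
  obtain ⟨w', rfl⟩ := hw
  obtain ⟨ε', rfl⟩ := hε
  have h2 : r ^ n * (w' : R) = (p : R) ^ m * ε' := by
    apply hinj
    rw [map_mul, map_pow, hr, he]
  rw [hv] at h2
  have h3 : ((v ^ n * w' : Rˣ) : R) * (p : R) ^ (k * n) = (ε' : Rˣ) * (p : R) ^ m := by
    rw [Units.val_mul, Units.val_pow_eq_pow_val, pow_mul]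
    linear_combination h2
  have := IsDiscreteValuationRing.unit_mul_pow_congr_pow h.unif h.unif _ _ _ _ h3
  exact ⟨k, by rw [← this, mul_comm]⟩

/-- good reduction of `y² = x³ - B x` -/
lemma goodQ [Fact p.Prime] (h : Loc p R) (hp2 : p ≠ 2) (c : ℤ) (hc : ¬ (p : ℤ) ∣ c) (m : ℕ) :
    (Ew K (-((p : ℤ) ^ (4 * m) * c)) 0).localPolynomial R =
      1 - C ((p : ℤ) - affCard (Ew (ZMod p) (-c) 0)) * X + C (p : ℤ) * X ^ 2 := by
  have hpp : Prime (p : ℤ) := Nat.prime_iff_prime_int.1 h.prime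
  have hinj : Function.Injective (algebraMap R K) := IsFractionRing.injective R K
  have hpK : ((p : K)) ≠ 0 := by
    have h1 : algebraMap R K (p : R) ≠ 0 := by
      rw [Ne, map_eq_zero_iff _ hinj]; exact h.unif.ne_zero
    rwa [map_natCast] at h1
  have h1 := M1.pfLocGood p R K h (Ew K (-((p : ℤ) ^ (4 * m) * c)) 0)
    ⟨Units.mk0 ((p : K) ^ m) (pow_ne_zero _ hpK), 0, 0, 0⟩ (Ew R (-c) 0) (by
      rw [map_Ew]
      ext
      · simp [Ew, variableChange_a₁]
      · simp [Ew, variableChange_a₂]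
      · simp [Ew, variableChange_a₃]
      · simp only [Ew, variableChange_a₄, Units.val_inv_eq_inv_val, Units.val_mk0]
        push_cast
        have : (p : K) ^ (4 * m) = ((p : K) ^ m) ^ 4 := by rw [← pow_mul, mul_comm]
        rw [this]
        have h2 : (p : K) ^ m ≠ 0 := pow_ne_zero _ hpK
        field_simp
        ring
      · simp [Ew, variableChange_a₆]) (by
      rw [Ew_Δ]
      apply isUnit_int h
      intro h3
      have h4 : (p : ℤ) ∣ 2 ^ 6 * c ^ 3 := by
        convert h3 using 1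
        ring
      rcases hpp.dvd_or_dvd h4 with h5 | h5
      · have h6 : (p : ℤ) ∣ 2 := hpp.dvd_of_dvd_pow h5
        have h7 : p ∣ 2 := by exact_mod_cast h6
        exact hp2 ((Nat.prime_dvd_prime_iff_eq h.prime Nat.prime_two).1 h7)
      · exact hc (hpp.dvd_of_dvd_pow h5))
  rw [map_Ew, affCard_Ew h.prime h.card] at h1
  exact h1

omit [IsDomain R] [IsDiscreteValuationRing R] in
/-- models of a curve with `c₆ = 0` -/
lemma c4_cube {W : WeierstrassCurve K} (hW : W.c₆ = 0) (V : VariableChange K)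
    (W₁ : WeierstrassCurve R) (hV : V • W = W₁.map (algebraMap R K)) :
    W₁.c₄ ^ 3 = 1728 * W₁.Δ := by
  have hinj : Function.Injective (algebraMap R K) := IsFractionRing.injective R K
  have h6 : W₁.c₆ = 0 := by
    apply hinj
    have h1 := congrArg WeierstrassCurve.c₆ hV
    rw [variableChange_c₆, hW, mul_zero, map_c₆] at h1
    rw [← h1, map_zero]
  have h2 := W₁.c_relation
  rw [h6] at h2
  linear_combination - h2

/-- additive reduction of `y² = x³ - B x` at odd primes -/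
lemma addQ (h : Loc p R) (hp2 : p ≠ 2) (c : ℤ) (hc : ¬ (p : ℤ) ∣ c) (v : ℕ) (hv : ¬ 4 ∣ v) :
    (Ew K (-((p : ℤ) ^ v * c)) 0).localPolynomial R = 1 := by
  have hpp : Prime (p : ℤ) := Nat.prime_iff_prime_int.1 h.prime
  apply M1.pfLocAdd p R K h
  intro V W₁ hV
  have h6 : (Ew K (-((p : ℤ) ^ v * c)) 0).c₆ = 0 := by
    simp [Ew, WeierstrassCurve.c₆, WeierstrassCurve.b₂, WeierstrassCurve.b₄, WeierstrassCurve.b₆]
  have hc4 := c4_cube h6 V W₁ hV
  have hu : (V.u : K) ≠ 0 := V.u.ne_zero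
  have hΔ : ¬ IsUnit W₁.Δ := by
    intro hw
    have he : (V.u : K) ^ 12 * algebraMap R K W₁.Δ =
        algebraMap R K ((p : R) ^ (3 * v) * ((64 * c ^ 3 : ℤ) : R)) := by
      have h1 := congrArg WeierstrassCurve.Δ hV
      rw [variableChange_Δ, WeierstrassCurve.map_Δ, Ew_Δ] at h1
      rw [← h1, Units.val_inv_eq_inv_val, ← mul_assoc, inv_pow, mul_inv_cancel₀ (pow_ne_zero _ hu),
        one_mul]
      rw [map_mul, map_pow, map_natCast, map_intCast]
      push_cast
      ring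
    have hε : IsUnit ((64 * c ^ 3 : ℤ) : R) := by
      apply isUnit_int h
      intro h4
      have h4' : (p : ℤ) ∣ 2 ^ 6 * c ^ 3 := by
        convert h4 using 1
        norm_num
      rcases hpp.dvd_or_dvd h4' with h5 | h5
      · have h6 : (p : ℤ) ∣ 2 := hpp.dvd_of_dvd_pow h5
        have h7 : p ∣ 2 := by exact_mod_cast h6
        exact hp2 ((Nat.prime_dvd_prime_iff_eq h.prime Nat.prime_two).1 h7)
      · exact hc (hpp.dvd_of_dvd_pow h5)
    have h8 := val_disc h (by norm_num) (V.u : K) hu hw hε he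
    exact hv (by omega)
  refine ⟨hΔ, fun hw => hΔ ?_⟩
  have h3 : IsUnit (W₁.c₄ ^ 3) := hw.pow 3
  rw [hc4] at h3
  exact isUnit_of_mul_isUnit_right h3

/-- additive reduction at `2` for every curve with `c₆ = 0` -/
lemma addTwo (h : Loc 2 R) {W : WeierstrassCurve K} (h6 : W.c₆ = 0) :
    W.localPolynomial R = 1 := by
  apply M1.pfLocAdd 2 R K h
  intro V W₁ hV
  have hc4 := c4_cube h6 V W₁ hV
  have h2R : Prime (2 : R) := by
    have := h.unif.prime
    simpa using this
  have hd : (2 : R) ∣ W₁.c₄ := by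
    apply h2R.dvd_of_dvd_pow (n := 3)
    rw [hc4]
    exact ⟨864 * W₁.Δ, by ring⟩
  refine ⟨fun hw => ?_, fun hw => h2R.not_isUnit (isUnit_of_dvd_unit hd hw)⟩
  have hb2 : (2 : R) ∣ W₁.b₂ := by
    apply h2R.dvd_of_dvd_pow (n := 2)
    obtain ⟨t, ht⟩ := hd
    refine ⟨t + 12 * W₁.b₄, ?_⟩
    have : W₁.c₄ = W₁.b₂ ^ 2 - 24 * W₁.b₄ := rfl
    linear_combination ht - this
  have ha1 : (2 : R) ∣ W₁.a₁ := by
    apply h2R.dvd_of_dvd_pow (n := 2)
    obtain ⟨t, ht⟩ := hb2
    refine ⟨t - 2 * W₁.a₂, ?_⟩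
    have : W₁.b₂ = W₁.a₁ ^ 2 + 4 * W₁.a₂ := rfl
    linear_combination ht - this
  obtain ⟨a, ha⟩ := ha1
  obtain ⟨t, ht⟩ : ∃ t : R, W₁.c₄ = 16 * t := by
    refine ⟨(a ^ 2 + W₁.a₂) ^ 2 - 3 * (W₁.a₄ + a * W₁.a₃), ?_⟩
    simp only [WeierstrassCurve.c₄, WeierstrassCurve.b₂, WeierstrassCurve.b₄, ha]
    ring
  rw [ht] at hc4
  have h64 : (64 : R) ≠ 0 := by
    have : (64 : R) = 2 ^ 6 := by norm_num
    rw [this]
    exact pow_ne_zero _ h2R.ne_zero
  have h5 : (64 : R) * t ^ 3 = 27 * W₁.Δ := by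
    apply mul_left_cancel₀ h64
    linear_combination hc4
  have h27 : IsUnit ((27 : ℤ) : R) := isUnit_int h (by norm_num)
  have h8 : IsUnit (27 * W₁.Δ) := by
    have := h27.mul hw
    simpa using this
  rw [← h5] at h8
  exact h2R.not_isUnit (isUnit_of_dvd_unit ⟨32 * t ^ 3, by ring⟩ h8)

end local_ring

/-- Module MLQ. -/
theorem pfMLQ : StMLQ := by
  intro B hB A hA
  obtain ⟨e0, e1, e2, e3⟩ := M2.pfEul (-B) 0
  apply eq_of_pow A (LA (-B) 0) hA.ld.zero e0 hA.ld.one e1 hA.ld.mul e2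
  intro p hp
  have hfact : Fact p.Prime := ⟨hp⟩
  have hL := M2.pfLoc p hp
  obtain ⟨f1, -, -, f4⟩ := e3 p hp
  have hlocP : locP (-B) 0 p hp = (Ew ((pl p hp).adicCompletion ℚ) (-B) 0).localPolynomial
      ((pl p hp).adicCompletionIntegers ℚ) := by
    unfold locP
    rw [Ec_map]
  have hpp : Prime (p : ℤ) := Nat.prime_iff_prime_int.1 hp
  by_cases hp2 : p = 2
  · subst hp2
    apply pow_of_triv hA.ld.one e1 hA.two
    apply f1
    rw [hlocP]
    apply addTwo hL
    simp [Ew, WeierstrassCurve.c₆, WeierstrassCurve.b₂, WeierstrassCurve.b₄, WeierstrassCurve.b₆]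
  · have hdvd : (p : ℤ) ^ padicValInt p B ∣ B := by
      have := (padicValInt_dvd_iff (p := p) (hp := ⟨hp⟩) (padicValInt p B) B).2 (Or.inr le_rfl)
      simpa using this
    have hBc : B = (p : ℤ) ^ padicValInt p B * cop B p := by
      rw [cop, Int.mul_ediv_cancel' hdvd]
    have hc : ¬ (p : ℤ) ∣ cop B p := by
      intro h
      have h1 : (p : ℤ) ^ (padicValInt p B + 1) ∣ B := by
        conv_rhs => rw [hBc]
        rw [pow_succ]
        exact mul_dvd_mul_left _ h
      have h2 := (padicValInt_dvd_iff (p := p) (hp := ⟨hp⟩) (padicValInt p B + 1) B).1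
        (by simpa using h1)
      rcases h2 with h2 | h2
      · exact hB h2
      · omega
    by_cases h4 : 4 ∣ padicValInt p B
    · obtain ⟨m, hm⟩ := h4
      obtain ⟨g1, g2⟩ := hA.good p hp hp2 ⟨m, hm⟩
      have h5 := goodQ (K := (pl p hp).adicCompletion ℚ) hL hp2 (cop B p) hc m
      rw [← hm, ← hBc, ← hlocP] at h5
      obtain ⟨g3, g4⟩ := f4 _ h5
      apply pow_of_good hA.ld.one e1 g1 g4
      rw [g2, g3]
      unfold trQ affCard
      congr 3
      simp only [Ew]
      congr 1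
      ext q
      push_cast
      constructor <;> intro h <;> linear_combination h
    · have h5 := addQ (K := (pl p hp).adicCompletion ℚ) hL hp2 (cop B p) hc _ h4
      rw [← hBc, ← hlocP] at h5
      exact pow_of_triv hA.ld.one e1 (hA.bad p hp hp2 h4) (f1 h5)

end MQ
end ML
end P004G
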